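import Vale.Agent.Lib.P134.Classification

/-!
De Giorgi's conjecture for the Allen-Cahn equation: classification of the bounded monotone
solutions whose derivative in the last coordinate direction is constant on every level set.
-/

open InnerProductSpace Laplacian

namespace Vale.Agent.Results.P134.LevelSetClassification

/-- Let `u` be a `C^2` solution of `Δ u = u^3 - u` on `ℝ^(n+1)` with `|u| ≤ 1` whose derivative
in the last coordinate direction is positive everywhere. Then this derivative takes the same
value at any two points where `u` takes the same value if and only if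
`u x = tanh ((⟪a, x⟫ - c) / √2)` for a unit vector `a` with positive last coordinate. -/
theorem result (n : ℕ) (u : EuclideanSpace ℝ (Fin (n + 1)) → ℝ)
    (hu : ContDiff ℝ 2 u)
    (hAC : ∀ x, Δ u x = u x ^ 3 - u x)
    (hb : ∀ x, |u x| ≤ 1)
    (hmono : ∀ x, 0 < fderiv ℝ u x (EuclideanSpace.single (Fin.last n) 1)) :
    (∀ x y, u x = u y →
      fderiv ℝ u x (EuclideanSpace.single (Fin.last n) 1)
        = fderiv ℝ u y (EuclideanSpace.single (Fin.last n) 1)) ↔
    ∃ (a : EuclideanSpace ℝ (Fin (n + 1))) (c : ℝ),
      ‖a‖ = 1 ∧ 0 < a (Fin.last n) ∧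
        ∀ x, u x = Real.tanh ((inner ℝ a x - c) / Real.sqrt 2) := by
  have key := Vale.Agent.Lib.P134.level_iff_tanh u hu
    (EuclideanSpace.single (Fin.last n) 1) hAC hb hmono
  have hcoord : ∀ a : EuclideanSpace ℝ (Fin (n + 1)),
      inner ℝ a (EuclideanSpace.single (Fin.last n) (1 : ℝ)) = a (Fin.last n) := by
    intro a
    simp [EuclideanSpace.inner_single_right]
  simpa only [hcoord] using key

end Vale.Agent.Results.P134.LevelSetClassification
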