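import Vale.Agent.Lib.P134.Rigidity

/-!
De Giorgi's conjecture for the Allen-Cahn equation: rigidity for monotone solutions whose
derivative in the last coordinate direction is constant on every level set.
-/

open InnerProductSpace Laplacian

namespace Vale.Agent.Results.P134.LevelSetRigidity

/-- Let `u` be a `C^2` solution of `Δ u = u^3 - u` on `ℝ^(n+1)` whose derivative in the last
coordinate direction is positive everywhere and takes the same value at any two points where
`u` takes the same value. Then `u` is one-dimensional: `u x = H ⟪a, x⟫` for a unit vector `a`. -/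
theorem result (n : ℕ) (u : EuclideanSpace ℝ (Fin (n + 1)) → ℝ)
    (hu : ContDiff ℝ 2 u)
    (hAC : ∀ x, Δ u x = u x ^ 3 - u x)
    (hmono : ∀ x, 0 < fderiv ℝ u x (EuclideanSpace.single (Fin.last n) 1))
    (hlevel : ∀ x y, u x = u y →
      fderiv ℝ u x (EuclideanSpace.single (Fin.last n) 1)
        = fderiv ℝ u y (EuclideanSpace.single (Fin.last n) 1)) :
    ∃ (a : EuclideanSpace ℝ (Fin (n + 1))) (H : ℝ → ℝ),
      ‖a‖ = 1 ∧ ∀ x, u x = H (inner ℝ a x) :=
  Vale.Agent.Lib.P134.one_dim_of_level u hu _ hAC hmono hlevel

end Vale.Agent.Results.P134.LevelSetRigidity
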