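import Vale.Agent.Lib.P134.Classification
import Vale.Agent.Lib.P134.Rigidity
import Vale.Agent.Lib.P134.Separated

/-!
De Giorgi's conjecture for the Allen-Cahn equation: in every dimension, the conjectured
one-dimensionality of monotone solutions holds in two classes of solutions, those whose
derivative in the last coordinate direction is constant on every level set (with the explicit
form of the solution when `|u| ≤ 1`) and those of separated form `a x' * Y x_n + b x'`.
-/

open InnerProductSpace Laplacian

namespace Vale.Agent.Results.P134.MonotoneClasses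

/-- Let `u` be a `C^2` solution of `Δ u = u^3 - u` on `ℝ^(n+1)` whose derivative in the last
coordinate direction is positive everywhere. Then:

* if `|u| ≤ 1`, the derivative in the last coordinate direction takes the same value at any two
  points where `u` takes the same value if and only if `u x = tanh ((⟪a, x⟫ - c) / √2)` for a
  unit vector `a` with positive last coordinate and a real `c`;
* if `u (x', x_n) = a x' * Y x_n + b x'` for some functions `a`, `b` of the first `n`
  coordinates and some function `Y` of the last coordinate, then `u` is a function of the last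
  coordinate alone;
* without any bound on `u`: if the derivative in the last coordinate direction takes the same
  value at any two points where `u` takes the same value, then `u x = H ⟪a, x⟫` for a unit
  vector `a` and a function `H`. -/
theorem result (n : ℕ) (u : EuclideanSpace ℝ (Fin (n + 1)) → ℝ)
    (hu : ContDiff ℝ 2 u)
    (hAC : ∀ x, Δ u x = u x ^ 3 - u x)
    (hmono : ∀ x, 0 < fderiv ℝ u x (EuclideanSpace.single (Fin.last n) 1)) :
    ((∀ x, |u x| ≤ 1) →
      ((∀ x y, u x = u y →
          fderiv ℝ u x (EuclideanSpace.single (Fin.last n) 1)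
            = fderiv ℝ u y (EuclideanSpace.single (Fin.last n) 1)) ↔
        ∃ (a : EuclideanSpace ℝ (Fin (n + 1))) (c : ℝ),
          ‖a‖ = 1 ∧ 0 < a (Fin.last n) ∧
            ∀ x, u x = Real.tanh ((inner ℝ a x - c) / Real.sqrt 2))) ∧
    (∀ (a b : (Fin n → ℝ) → ℝ) (Y : ℝ → ℝ),
      (∀ x, u x = a (fun i => x (Fin.castSucc i)) * Y (x (Fin.last n))
        + b (fun i => x (Fin.castSucc i))) →
      ∃ H : ℝ → ℝ, ∀ x, u x = H (x (Fin.last n))) ∧
    ((∀ x y, u x = u y →
        fderiv ℝ u x (EuclideanSpace.single (Fin.last n) 1)
          = fderiv ℝ u y (EuclideanSpace.single (Fin.last n) 1)) →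
      ∃ (a : EuclideanSpace ℝ (Fin (n + 1))) (H : ℝ → ℝ),
        ‖a‖ = 1 ∧ ∀ x, u x = H (inner ℝ a x)) := by
  refine ⟨fun hb => ?_, fun a b Y hsep => ?_, fun hlevel => ?_⟩
  · have key := Vale.Agent.Lib.P134.level_iff_tanh u hu
      (EuclideanSpace.single (Fin.last n) 1) hAC hb hmono
    have hcoord : ∀ a : EuclideanSpace ℝ (Fin (n + 1)),
        inner ℝ a (EuclideanSpace.single (Fin.last n) (1 : ℝ)) = a (Fin.last n) := by
      intro a
      simp [EuclideanSpace.inner_single_right]
    simpa only [hcoord] using key
  · have hcoord : ∀ x : EuclideanSpace ℝ (Fin (n + 1)),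
        inner ℝ (EuclideanSpace.single (Fin.last n) (1 : ℝ)) x = x (Fin.last n) := by
      intro x
      simp [EuclideanSpace.inner_single_left]
    have hshift : ∀ (x : EuclideanSpace ℝ (Fin (n + 1))) (s : ℝ),
        (fun i : Fin n => (x + s • EuclideanSpace.single (Fin.last n) (1 : ℝ)) (Fin.castSucc i))
          = fun i : Fin n => x (Fin.castSucc i) := by
      intro x s
      funext i
      simp [Fin.castSucc_ne_last]
    have key := Vale.Agent.Lib.P134.one_dim_of_separated u hu
      (EuclideanSpace.single (Fin.last n) 1) (by simp) hAC hmono
      (fun x => a (fun i => x (Fin.castSucc i))) (fun x => b (fun i => x (Fin.castSucc i))) Y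
      (fun x s => by simp only [hshift]) (fun x s => by simp only [hshift])
      (fun x => by rw [hcoord]; exact hsep x)
    obtain ⟨H, hH⟩ := key
    exact ⟨H, fun x => by rw [hH x, hcoord]⟩
  · exact Vale.Agent.Lib.P134.one_dim_of_level u hu _ hAC hmono hlevel

end Vale.Agent.Results.P134.MonotoneClasses
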