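import Vale.Agent.Lib.P134.Separated

/-!
De Giorgi's conjecture for the Allen-Cahn equation: monotone solutions of the separated form
`u (x', x_n) = a x' * Y x_n + b x'` depend on `x_n` only.
-/

open InnerProductSpace Laplacian

namespace Vale.Agent.Results.P134.SeparatedVariables

/-- Let `u` be a `C^2` solution of `Δ u = u^3 - u` on `ℝ^(n+1)` whose derivative in the last
coordinate direction is positive everywhere. If `u (x', x_n) = a x' * Y x_n + b x'` for some
functions `a`, `b` of the first `n` coordinates and some function `Y` of the last coordinate,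
then `u` is a function of the last coordinate alone. -/
theorem result (n : ℕ) (u : EuclideanSpace ℝ (Fin (n + 1)) → ℝ)
    (hu : ContDiff ℝ 2 u)
    (hAC : ∀ x, Δ u x = u x ^ 3 - u x)
    (hmono : ∀ x, 0 < fderiv ℝ u x (EuclideanSpace.single (Fin.last n) 1))
    (a b : (Fin n → ℝ) → ℝ) (Y : ℝ → ℝ)
    (hsep : ∀ x, u x = a (fun i => x (Fin.castSucc i)) * Y (x (Fin.last n))
      + b (fun i => x (Fin.castSucc i))) :
    ∃ H : ℝ → ℝ, ∀ x, u x = H (x (Fin.last n)) := by
  have hcoord : ∀ x : EuclideanSpace ℝ (Fin (n + 1)),
      inner ℝ (EuclideanSpace.single (Fin.last n) (1 : ℝ)) x = x (Fin.last n) := by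
    intro x
    simp [EuclideanSpace.inner_single_left]
  have hshift : ∀ (x : EuclideanSpace ℝ (Fin (n + 1))) (s : ℝ),
      (fun i : Fin n => (x + s • EuclideanSpace.single (Fin.last n) (1 : ℝ)) (Fin.castSucc i))
        = fun i : Fin n => x (Fin.castSucc i) := by
    intro x s
    funext i
    simp [Fin.castSucc_ne_last]
  have key := Vale.Agent.Lib.P134.one_dim_of_separated u hu
    (EuclideanSpace.single (Fin.last n) 1) (by simp) hAC hmono
    (fun x => a (fun i => x (Fin.castSucc i))) (fun x => b (fun i => x (Fin.castSucc i))) Y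
    (fun x s => by simp only [hshift]) (fun x s => by simp only [hshift])
    (fun x => by rw [hcoord]; exact hsep x)
  obtain ⟨H, hH⟩ := key
  exact ⟨H, fun x => by rw [hH x, hcoord]⟩

end Vale.Agent.Results.P134.SeparatedVariables
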